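import Vale.Agent.Lib.P225.Model

open Filter Topology Set
open Vale.Agent.Lib.P225

namespace Vale.Agent.Results.P225.ModelRadialModes

/-- On a complete rotationally symmetric manifold `(ℝ^n, dr² + f(r)² g_{S^{n-1}})` with `Ric ≥ 0`,
the radial factor `a` of a harmonic function `a(r) Y(θ)`, `Y` a spherical harmonic of degree `j`,
satisfies: `|a(r)| / r^j` is nondecreasing; hence a growth bound `|a(r)| ≤ C (1+r)^d` with `d < j`
forces `a = 0`; and any other such radial factor `b` (same `n`, `j`, `f`) is a multiple of `a`. -/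
theorem result (n j : ℕ) (hn : 2 ≤ n) (_hj : 1 ≤ j) (f a : ℝ → ℝ) (hf : IsRicNonnegWarp f)
    (ha : IsRegularRadialMode n j f a) :
    MonotoneOn (fun r => |a r| / r ^ j) (Ioi 0) ∧
    (∀ d C : ℝ, d < j → (∀ r : ℝ, 0 < r → |a r| ≤ C * (1 + r) ^ d) →
      ∀ r : ℝ, 0 < r → a r = 0) ∧
    (∀ b : ℝ → ℝ, IsRegularRadialMode n j f b →
      (∀ r : ℝ, 0 < r → a r = 0) ∨ ∃ c : ℝ, ∀ r : ℝ, 0 < r → b r = c * a r) := by
  obtain ⟨p, rfl⟩ : ∃ p, n = p + 2 := ⟨n - 2, by omega⟩
  have hsq := mode_sq_monotoneOn hf ha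
  have hmono : MonotoneOn (fun r => |a r| / r ^ j) (Ioi 0) := by
    intro x hx y hy hxy
    have hx0 : 0 < x := hx
    have hy0 : 0 < y := hy
    have h := hsq hx hy hxy
    simp only at h ⊢
    have e : ∀ r : ℝ, a r ^ 2 / r ^ (2 * j) = (|a r| / r ^ j) ^ 2 := by
      intro r; rw [div_pow, sq_abs, ← pow_mul, mul_comm j 2]
    rw [e, e] at h
    exact (pow_le_pow_iff_left₀ (by positivity) (by positivity) (two_ne_zero)).1 h
  refine ⟨hmono, ?_, fun b hb => mode_unique hf ha hb⟩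
  intro d C hd hgrow r hr
  by_contra hne
  set c : ℝ := |a r| / r ^ j with hc
  have hcpos : 0 < c := div_pos (abs_pos.2 hne) (pow_pos hr _)
  have hC : 0 < C := by
    have h1 := hgrow r hr
    have h2 : 0 < |a r| := abs_pos.2 hne
    have h3 : 0 < (1 + r) ^ d := Real.rpow_pos_of_pos (by linarith) _
    by_contra hC
    have : C * (1 + r) ^ d ≤ 0 := mul_nonpos_of_nonpos_of_nonneg (not_lt.1 hC) h3.le
    linarith
  -- for large `x` the growth bound contradicts monotonicity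
  have hlim : Tendsto (fun x : ℝ => C * 2 ^ |d| * x ^ (-((j : ℝ) - d))) atTop (𝓝 0) := by
    have := (tendsto_rpow_neg_atTop (by linarith : 0 < (j : ℝ) - d)).const_mul (C * 2 ^ |d|)
    simpa using this
  have hev := (hlim.eventually (gt_mem_nhds hcpos)).and (eventually_ge_atTop (max r 1))
  obtain ⟨x, hx1, hx2⟩ := hev.exists
  have hxr : r ≤ x := (le_max_left _ _).trans hx2
  have hx1' : 1 ≤ x := (le_max_right _ _).trans hx2
  have hx0 : 0 < x := by linarith
  have h1 : c ≤ |a x| / x ^ j := hmono hr hx0 hxr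
  have h2 : |a x| ≤ C * (1 + x) ^ d := hgrow x hx0
  have h3 : (1 + x) ^ d ≤ 2 ^ |d| * x ^ d := by
    rcases le_or_gt 0 d with hd0 | hd0
    · rw [abs_of_nonneg hd0, ← Real.mul_rpow (by norm_num) hx0.le]
      exact Real.rpow_le_rpow (by linarith) (by linarith) hd0
    · have e1 : (1 + x) ^ d ≤ x ^ d :=
        Real.rpow_le_rpow_of_nonpos hx0 (by linarith) hd0.le
      have e2 : (1 : ℝ) ≤ 2 ^ |d| := Real.one_le_rpow (by norm_num) (abs_nonneg d)
      have e3 : 0 < x ^ d := Real.rpow_pos_of_pos hx0 _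
      nlinarith
  have h4 : |a x| / x ^ j ≤ C * 2 ^ |d| * x ^ (-((j : ℝ) - d)) := by
    rw [div_le_iff₀ (pow_pos hx0 _)]
    have e : x ^ (-((j : ℝ) - d)) * x ^ j = x ^ d := by
      rw [← Real.rpow_natCast x j, ← Real.rpow_add hx0]
      congr 1; ring
    calc |a x| ≤ C * (1 + x) ^ d := h2
      _ ≤ C * (2 ^ |d| * x ^ d) := by gcongr
      _ = C * 2 ^ |d| * x ^ (-((j : ℝ) - d)) * x ^ j := by rw [mul_assoc _ _ (x ^ j), e]; ring
  linarith

end Vale.Agent.Results.P225.ModelRadialModes
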